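import Mathlib

/-!
Invariant embedded lines under a recurrent group element: the recurrence argument.
-/

namespace Vale.Agent.Lib.P228

open Filter Topology

section recurrence

variable {K X : Type*} [AddCommGroup K] [TopologicalSpace K] [TopologicalSpace X]

/-- If `g` and `-g` map an embedded line into itself and some multiples `m j • (g + g)` with
`1 ≤ m j` tend to `0`, then `g + g` fixes the line pointwise. -/
theorem line_fixed_of_recurrent
    (act : K → X → X)
    (hcont1 : ∀ x, Continuous (fun a => act a x)) (hcont2 : ∀ a, Continuous (act a))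
    (hzero : ∀ x, act 0 x = x) (hadd : ∀ a b x, act (a + b) x = act a (act b x))
    (ι : ℝ → X) (hι : IsEmbedding ι) (g : K)
    (hg : ∀ t, act g (ι t) ∈ Set.range ι) (hg' : ∀ t, act (-g) (ι t) ∈ Set.range ι)
    (m : ℕ → ℕ) (hm1 : ∀ j, 1 ≤ m j)
    (hm : Tendsto (fun j => m j • (g + g)) atTop (𝓝 0)) (t : ℝ) :
    act (g + g) (ι t) = ι t := by
  choose h hh using hg
  choose h' hh' using hg'
  have hcancel : ∀ t, h' (h t) = t := fun t =>
    hι.injective (by rw [hh', hh, ← hadd, neg_add_cancel, hzero])
  have hcts : Continuous h := by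
    rw [hι.continuous_iff]
    have : ι ∘ h = act g ∘ ι := funext hh
    rw [this]
    exact (hcont2 g).comp hι.continuous
  have hinj : Function.Injective h := fun s t hst => by
    have := congrArg h' hst
    rwa [hcancel, hcancel] at this
  set f : ℝ → ℝ := fun t => h (h t) with hfdef
  have hfmono : StrictMono f := by
    rcases hcts.strictMono_of_inj hinj with hs | hs
    · exact hs.comp hs
    · exact hs.comp hs
  have hf : ∀ t, ι (f t) = act (g + g) (ι t) := fun t => by
    simp only [hfdef, hh, hadd]
  have hiter : ∀ (n : ℕ) (t : ℝ), ι (f^[n] t) = act (n • (g + g)) (ι t) := by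
    intro n
    induction n with
    | zero => intro t; simp [hzero]
    | succ n ih =>
      intro t
      rw [Function.iterate_succ_apply, ih, hf, ← hadd, succ_nsmul]
  have hlim : Tendsto (fun j => f^[m j] t) atTop (𝓝 t) := by
    rw [hι.tendsto_nhds_iff]
    have e : (ι ∘ fun j => f^[m j] t) = fun j => act (m j • (g + g)) (ι t) :=
      funext fun j => hiter _ _
    rw [e]
    have h0 : Tendsto (fun j => act (m j • (g + g)) (ι t)) atTop (𝓝 (act 0 (ι t))) :=
      ((hcont1 (ι t)).tendsto 0).comp hm
    rwa [hzero] at h0
  have hkey : f t = t := by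
    rcases lt_trichotomy t (f t) with hlt | heq | hgt
    · exfalso
      have h1 : ∀ n : ℕ, t ≤ f^[n] t := by
        intro n
        induction n with
        | zero => simp
        | succ n ih =>
          rw [Function.iterate_succ_apply']
          exact hlt.le.trans (hfmono.monotone ih)
      have h2 : ∀ j, f t ≤ f^[m j] t := by
        intro j
        obtain ⟨n, hn⟩ := Nat.exists_eq_add_of_le (hm1 j)
        rw [hn, add_comm, Function.iterate_succ_apply']
        exact hfmono.monotone (h1 n)
      have h3 : f t ≤ t := ge_of_tendsto' hlim h2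
      exact absurd hlt (not_lt.mpr h3)
    · exact heq.symm
    · exfalso
      have h1 : ∀ n : ℕ, f^[n] t ≤ t := by
        intro n
        induction n with
        | zero => simp
        | succ n ih =>
          rw [Function.iterate_succ_apply']
          exact (hfmono.monotone ih).trans hgt.le
      have h2 : ∀ j, f^[m j] t ≤ f t := by
        intro j
        obtain ⟨n, hn⟩ := Nat.exists_eq_add_of_le (hm1 j)
        rw [hn, add_comm, Function.iterate_succ_apply']
        exact hfmono.monotone (h1 n)
      have h3 : t ≤ f t := le_of_tendsto' hlim h2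
      exact absurd hgt (not_lt.mpr h3)
  rw [← hf, hkey]

end recurrence

section padic

variable (p : ℕ) [Fact p.Prime]

theorem padic_pow_smul_tendsto (u : ℤ_[p]) :
    Tendsto (fun j : ℕ => (p ^ j) • u) atTop (𝓝 0) := by
  have h1 : Tendsto (fun j : ℕ => (p : ℤ_[p]) ^ j) atTop (𝓝 0) := by
    apply tendsto_pow_atTop_nhds_zero_of_norm_lt_one
    rw [PadicInt.norm_p]
    have hp : (1 : ℝ) < p := by exact_mod_cast (Fact.out : p.Prime).one_lt
    exact inv_lt_one_of_one_lt₀ hp
  have h2 := h1.mul_const u
  rw [zero_mul] at h2
  refine h2.congr fun j => ?_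
  rw [nsmul_eq_mul]
  push_cast
  rfl

/-- For an action of the `p`-adic integers: if `g` and `-g` map an embedded line into itself,
then `2 * g` fixes the line pointwise. -/
theorem padic_line_fixed {X : Type*} [TopologicalSpace X]
    (act : ℤ_[p] → X → X)
    (hcont : Continuous (fun z : ℤ_[p] × X => act z.1 z.2))
    (hzero : ∀ x, act 0 x = x) (hadd : ∀ a b x, act (a + b) x = act a (act b x))
    (ι : ℝ → X) (hι : IsEmbedding ι) (g : ℤ_[p])
    (hg : ∀ t, act g (ι t) ∈ Set.range ι) (hg' : ∀ t, act (-g) (ι t) ∈ Set.range ι) (t : ℝ) :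
    act (2 * g) (ι t) = ι t := by
  rw [two_mul]
  refine line_fixed_of_recurrent act
    (fun x => hcont.comp (Continuous.prodMk continuous_id continuous_const))
    (fun a => hcont.comp (Continuous.prodMk continuous_const continuous_id))
    hzero hadd ι hι g hg hg' (fun j => p ^ j)
    (fun j => Nat.one_le_pow _ _ (Fact.out : p.Prime).pos) (padic_pow_smul_tendsto p (g + g)) t

end padic

end Vale.Agent.Lib.P228
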