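import Mathlib
import Vale.Agent.Lib.P228.Recurrence

namespace Vale.Agent.Lib.P228

theorem invariant_lines (p : ℕ) [Fact p.Prime] (E : Type*) [TopologicalSpace E]
    (act : ℤ_[p] → E → E)
    (hcont : Continuous (fun z : ℤ_[p] × E => act z.1 z.2))
    (hzero : ∀ x, act 0 x = x)
    (hadd : ∀ a b x, act (a + b) x = act a (act b x))
    (hlines : ∀ x : E, ∃ ι : ℝ → E, Topology.IsEmbedding ι ∧ x ∈ Set.range ι ∧
        ∀ (a : ℤ_[p]) (t : ℝ), act a (ι t) ∈ Set.range ι) :
    (∀ a x, act (2 * a) x = x) ∧ ∃ a : ℤ_[p], a ≠ 0 ∧ ∀ x, act a x = x := by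
  have key : ∀ a x, act (2 * a) x = x := by
    intro a x
    obtain ⟨ι, hι, ⟨t, rfl⟩, hinv⟩ := hlines x
    exact padic_line_fixed p act hcont hzero hadd ι hι a (hinv a) (hinv (-a)) t
  refine ⟨key, 2, two_ne_zero, fun x => ?_⟩
  have := key 1 x
  rwa [mul_one] at this

theorem skew_product (p : ℕ) [Fact p.Prime] (B : Type*) [TopologicalSpace B]
    (act : ℤ_[p] → B × ℝ → B × ℝ)
    (hcont : Continuous (fun z : ℤ_[p] × (B × ℝ) => act z.1 z.2))
    (hzero : ∀ x, act 0 x = x)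
    (hadd : ∀ a b x, act (a + b) x = act a (act b x))
    (actB : ℤ_[p] → B → B)
    (hequiv : ∀ a b t, (act a (b, t)).1 = actB a b)
    (hfaithful : ∀ a : ℤ_[p], a ≠ 0 → ∃ x, act a x ≠ x) :
    ∀ a : ℤ_[p], a ≠ 0 → ∃ b, actB a b ≠ b := by
  intro a ha
  by_contra hcon
  simp only [not_exists, ne_eq, not_not] at hcon
  have hfix : ∀ (c : ℤ_[p]), (∀ b, actB c b = b) → ∀ b t, act c (b, t) ∈
      Set.range (fun s : ℝ => ((b, s) : B × ℝ)) := by
    intro c hc b t
    refine ⟨(act c (b, t)).2, ?_⟩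
    apply Prod.ext
    · simp [hequiv, hc]
    · rfl
  have hneg : ∀ b, actB (-a) b = b := by
    intro b
    have h1 : act (-a) (act a (b, (0 : ℝ))) = (b, 0) := by
      rw [← hadd, neg_add_cancel, hzero]
    have h2 : act a (b, (0 : ℝ)) = (b, (act a (b, 0)).2) := by
      apply Prod.ext
      · simp [hequiv, hcon]
      · rfl
    rw [h2] at h1
    have h3 := congrArg Prod.fst h1
    rw [hequiv] at h3
    exact h3
  obtain ⟨x, hx⟩ := hfaithful (2 * a) (mul_ne_zero two_ne_zero ha)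
  apply hx
  obtain ⟨b, t⟩ := x
  have hemb : Topology.IsEmbedding (fun s : ℝ => ((b, s) : B × ℝ)) :=
    Topology.IsEmbedding.of_comp (Continuous.prodMk continuous_const continuous_id)
      continuous_snd Topology.IsEmbedding.id
  exact padic_line_fixed p act hcont hzero hadd
    (fun s : ℝ => ((b, s) : B × ℝ)) hemb a (hfix a hcon b) (hfix (-a) hneg b) t

end Vale.Agent.Lib.P228
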