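import Mathlib

/-!
Core lemma for compact group actions that preserve a line transversally.
-/

namespace Vale.Agent.Lib.P228

set_option linter.unusedSectionVars false

open Filter Topology

section core

variable {K X Y : Type*} [AddCommGroup K] [TopologicalSpace K] [CompactSpace K]
  [FirstCountableTopology K] [TopologicalSpace X] [TopologicalSpace Y] [T2Space Y]

/-- The transverse return map of the element `g` along the line `L`, read in the coordinate `c`. -/
def ret (act : K → X → X) (q : X → Y) (L : ℝ → X) (c : Y → ℝ) (g : K) (t : ℝ) : ℝ :=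
  c (q (act g (L t)))

theorem ret_cancel
    (act : K → X → X)
    (hzero : ∀ x, act 0 x = x) (hadd : ∀ a b x, act (a + b) x = act a (act b x))
    (q : X → Y)
    (hcompat : ∀ a x x', q x = q x' → q (act a x) = q (act a x'))
    (L : ℝ → X) (c : Y → ℝ) (hcL : ∀ t, c (q (L t)) = t)
    (g : K)
    (hg : ∀ t, q (act g (L t)) = q (L (ret act q L c g t))) (t : ℝ) :
    ret act q L c (-g) (ret act q L c g t) = t := by
  unfold ret
  have h1 : q (act (-g) (L (ret act q L c g t))) = q (act (-g) (act g (L t))) :=
    hcompat (-g) _ _ (hg t).symm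
  have h2 : act (-g) (act g (L t)) = L t := by
    rw [← hadd, neg_add_cancel, hzero]
  unfold ret at h1
  rw [h1, h2, hcL]

theorem ret_continuous
    (act : K → X → X) (hcont : Continuous (fun z : K × X => act z.1 z.2))
    (q : X → Y) (hq : Continuous q)
    (L : ℝ → X) (hL : Continuous L) (c : Y → ℝ) (hc : Continuous c) (g : K) :
    Continuous (ret act q L c g) := by
  unfold ret
  have : Continuous (fun t : ℝ => act g (L t)) :=
    hcont.comp (Continuous.prodMk continuous_const hL)
  exact hc.comp (hq.comp this)

theorem ret_two
    (act : K → X → X)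
    (hadd : ∀ a b x, act (a + b) x = act a (act b x))
    (q : X → Y)
    (hcompat : ∀ a x x', q x = q x' → q (act a x) = q (act a x'))
    (L : ℝ → X) (c : Y → ℝ)
    (g : K)
    (hg : ∀ t, q (act g (L t)) = q (L (ret act q L c g t))) (t : ℝ) :
    q (act (g + g) (L t)) = q (L (ret act q L c g (ret act q L c g t))) := by
  rw [hadd, hcompat g _ _ (hg t), hg]

theorem ret_two_strictMono
    (act : K → X → X) (hcont : Continuous (fun z : K × X => act z.1 z.2))
    (hzero : ∀ x, act 0 x = x) (hadd : ∀ a b x, act (a + b) x = act a (act b x))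
    (q : X → Y) (hq : Continuous q)
    (hcompat : ∀ a x x', q x = q x' → q (act a x) = q (act a x'))
    (L : ℝ → X) (hL : Continuous L) (c : Y → ℝ) (hc : Continuous c) (hcL : ∀ t, c (q (L t)) = t)
    (g : K)
    (hg : ∀ t, q (act g (L t)) = q (L (ret act q L c g t))) :
    StrictMono (fun t => ret act q L c g (ret act q L c g t)) := by
  have hinj : Function.Injective (ret act q L c g) := by
    intro s t hst
    have h1 := ret_cancel act hzero hadd q hcompat L c hcL g hg s
    have h2 := ret_cancel act hzero hadd q hcompat L c hcL g hg t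
    rw [hst] at h1
    rw [← h1, h2]
  have hcts := ret_continuous act hcont q hq L hL c hc g
  rcases hcts.strictMono_of_inj hinj with h | h
  · exact h.comp h
  · exact h.comp h

theorem ret_iter
    (act : K → X → X)
    (hzero : ∀ x, act 0 x = x) (hadd : ∀ a b x, act (a + b) x = act a (act b x))
    (q : X → Y)
    (hcompat : ∀ a x x', q x = q x' → q (act a x) = q (act a x'))
    (L : ℝ → X)
    (u : K) (f : ℝ → ℝ)
    (hu : ∀ t, q (act u (L t)) = q (L (f t))) (m : ℕ) (t : ℝ) :
    q (act (m • u) (L t)) = q (L (f^[m] t)) := by
  induction m generalizing t with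
  | zero => simp [hzero]
  | succ m ih =>
    rw [succ_nsmul, hadd, hcompat (m • u) _ _ (hu t), ih, Function.iterate_succ_apply]

theorem ret_not_lt
    (act : K → X → X) (hcont : Continuous (fun z : K × X => act z.1 z.2))
    (hzero : ∀ x, act 0 x = x) (hadd : ∀ a b x, act (a + b) x = act a (act b x))
    (q : X → Y) (hq : Continuous q)
    (hcompat : ∀ a x x', q x = q x' → q (act a x) = q (act a x'))
    (L : ℝ → X) (hL : Continuous L) (c : Y → ℝ) (hc : Continuous c) (hcL : ∀ t, c (q (L t)) = t)
    (g : K)
    (hg : ∀ t, q (act g (L t)) = q (L (ret act q L c g t))) (t : ℝ) :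
    ¬ (t < ret act q L c g (ret act q L c g t)) := by
  intro hlt
  set f : ℝ → ℝ := fun t => ret act q L c g (ret act q L c g t) with hf
  have hfmono : StrictMono f :=
    ret_two_strictMono act hcont hzero hadd q hq hcompat L hL c hc hcL g hg
  have hfcont : Continuous f :=
    (ret_continuous act hcont q hq L hL c hc g).comp (ret_continuous act hcont q hq L hL c hc g)
  have hu : ∀ t, q (act (g + g) (L t)) = q (L (f t)) :=
    fun t => ret_two act hadd q hcompat L c g hg t
  have hiter : ∀ (m : ℕ) (t : ℝ), q (act (m • (g + g)) (L t)) = q (L (f^[m] t)) :=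
    fun m t => ret_iter act hzero hadd q hcompat L (g + g) f hu m t
  -- the increasing orbit sequence
  set s : ℕ → ℝ := fun m => f^[m] t with hs
  have hs_succ : ∀ m, s (m + 1) = f (s m) := fun m => by
    simp only [hs, Function.iterate_succ_apply']
  have hs_strict : StrictMono s := by
    apply strictMono_nat_of_lt_succ
    intro m
    induction m with
    | zero => simpa [hs] using hlt
    | succ m ih =>
      calc s (m + 1) = f (s m) := hs_succ m
        _ < f (s (m + 1)) := hfmono ih
        _ = s (m + 1 + 1) := (hs_succ (m + 1)).symm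
  -- boundedness through compactness of the group
  have hφ : Continuous (fun a : K => c (q (act a (L t)))) := by
    have : Continuous (fun a : K => act a (L t)) :=
      hcont.comp (Continuous.prodMk continuous_id continuous_const)
    exact hc.comp (hq.comp this)
  have hbdd : BddAbove (Set.range s) := by
    have hcomp : IsCompact (Set.range (fun a : K => c (q (act a (L t))))) := isCompact_range hφ
    refine hcomp.bddAbove.mono ?_
    rintro _ ⟨m, rfl⟩
    refine ⟨m • (g + g), ?_⟩
    show c (q (act (m • (g + g)) (L t))) = s m
    rw [hiter m t, hcL]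
  set y : ℝ := ⨆ m, s m with hy
  have hlim : Tendsto s atTop (𝓝 y) := tendsto_atTop_ciSup hs_strict.monotone hbdd
  have hfy : f y = y := by
    have h1 : Tendsto (fun m => f (s m)) atTop (𝓝 (f y)) := (hfcont.tendsto y).comp hlim
    have h2 : Tendsto (fun m => f (s m)) atTop (𝓝 y) := by
      have : (fun m => f (s m)) = fun m => s (m + 1) := by
        funext m; rw [hs_succ]
      rw [this]
      exact hlim.comp (tendsto_add_atTop_nat 1)
    exact tendsto_nhds_unique h1 h2
  have hfy_iter : ∀ m : ℕ, f^[m] y = y := fun m => Function.iterate_fixed hfy m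
  -- a convergent subsequence of the multiples of `g + g`
  obtain ⟨a, φ, hφmono, hφlim⟩ := CompactSpace.tendsto_subseq (fun m : ℕ => m • (g + g))
  have hΨ : ∀ x : X, Continuous (fun b : K => q (act b x)) := fun x =>
    hq.comp (hcont.comp (Continuous.prodMk continuous_id continuous_const))
  have e1 : q (act a (L t)) = q (L y) := by
    have h1 : Tendsto (fun j => q (act (φ j • (g + g)) (L t))) atTop (𝓝 (q (act a (L t)))) :=
      ((hΨ (L t)).tendsto a).comp hφlim
    have h2 : Tendsto (fun j => q (act (φ j • (g + g)) (L t))) atTop (𝓝 (q (L y))) := by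
      have : (fun j => q (act (φ j • (g + g)) (L t))) = fun j => q (L (s (φ j))) := by
        funext j; rw [hiter]
      rw [this]
      exact ((hq.comp hL).tendsto y).comp (hlim.comp hφmono.tendsto_atTop)
    exact tendsto_nhds_unique h1 h2
  have e2 : q (act a (L y)) = q (L y) := by
    have h1 : Tendsto (fun j => q (act (φ j • (g + g)) (L y))) atTop (𝓝 (q (act a (L y)))) :=
      ((hΨ (L y)).tendsto a).comp hφlim
    have h2 : Tendsto (fun j => q (act (φ j • (g + g)) (L y))) atTop (𝓝 (q (L y))) := by
      have : (fun j => q (act (φ j • (g + g)) (L y))) = fun _ => q (L y) := by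
        funext j; rw [hiter, hfy_iter]
      rw [this]
      exact tendsto_const_nhds
    exact tendsto_nhds_unique h1 h2
  have e3 : q (L t) = q (L y) := by
    have h := hcompat (-a) _ _ (e1.trans e2.symm)
    rwa [← hadd, ← hadd, neg_add_cancel, hzero, hzero] at h
  have hty : t = y := by
    have := congrArg c e3
    rwa [hcL, hcL] at this
  have h1 : s 1 ≤ y := le_ciSup hbdd 1
  have h2 : t < s 1 := by simpa [hs] using hlt
  linarith

/-- Main one-coordinate lemma: if `g` and `-g` map the line `L` to itself modulo `q`, then the
transverse return map of `g + g` is the identity. -/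
theorem ret_two_eq
    (act : K → X → X) (hcont : Continuous (fun z : K × X => act z.1 z.2))
    (hzero : ∀ x, act 0 x = x) (hadd : ∀ a b x, act (a + b) x = act a (act b x))
    (q : X → Y) (hq : Continuous q)
    (hcompat : ∀ a x x', q x = q x' → q (act a x) = q (act a x'))
    (L : ℝ → X) (hL : Continuous L) (c : Y → ℝ) (hc : Continuous c) (hcL : ∀ t, c (q (L t)) = t)
    (g : K)
    (hg : ∀ t, q (act g (L t)) = q (L (ret act q L c g t)))
    (hg' : ∀ t, q (act (-g) (L t)) = q (L (ret act q L c (-g) t))) (t : ℝ) :
    q (act (g + g) (L t)) = q (L t) := by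
  have h1 := ret_not_lt act hcont hzero hadd q hq hcompat L hL c hc hcL g hg t
  have h2 := ret_not_lt act hcont hzero hadd q hq hcompat L hL c hc hcL (-g) hg' t
  have hmono' : StrictMono (fun t => ret act q L c (-g) (ret act q L c (-g) t)) :=
    ret_two_strictMono act hcont hzero hadd q hq hcompat L hL c hc hcL (-g) hg'
  have hcancel : ∀ s, ret act q L c (-g) (ret act q L c g s) = s :=
    fun s => ret_cancel act hzero hadd q hcompat L c hcL g hg s
  have hkey : ret act q L c g (ret act q L c g t) = t := by
    rcases lt_trichotomy t (ret act q L c g (ret act q L c g t)) with h | h | h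
    · exact absurd h h1
    · exact h.symm
    · exfalso
      apply h2
      have := hmono' h
      simp only [hcancel] at this
      exact this
  rw [ret_two act hadd q hcompat L c g hg t, hkey]

end core

end Vale.Agent.Lib.P228
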