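import Mathlib
import Vale.Agent.Lib.P228.Line

/-!
Triangular actions of a compact first countable abelian group on `Fin n → ℝ`.
-/

namespace Vale.Agent.Lib.P228

open Filter Topology

section triangular

variable {K : Type*} [AddCommGroup K] [TopologicalSpace K] [CompactSpace K]
  [FirstCountableTopology K]

/-- One step: if `g` and `-g` fix all coordinates below `i` of every point, then `g + g`
fixes coordinate `i` of every point. -/
theorem tri_step {n : ℕ}
    (act : K → (Fin n → ℝ) → (Fin n → ℝ))
    (hcont : Continuous (fun z : K × (Fin n → ℝ) => act z.1 z.2))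
    (hzero : ∀ x, act 0 x = x) (hadd : ∀ a b x, act (a + b) x = act a (act b x))
    (htri : ∀ a x y (i : Fin n), (∀ j : Fin n, j ≤ i → x j = y j) → act a x i = act a y i)
    (i : Fin n) (g : K)
    (hfix : ∀ x (j : Fin n), j < i → act g x j = x j)
    (hfix' : ∀ x (j : Fin n), j < i → act (-g) x j = x j) (x : Fin n → ℝ) :
    act (g + g) x i = x i := by
  classical
  set q : (Fin n → ℝ) → (Fin n → ℝ) := fun z j => if j ≤ i then z j else 0 with hq
  set c : (Fin n → ℝ) → ℝ := fun z => z i with hc
  set L : ℝ → (Fin n → ℝ) := fun t => Function.update x i t with hL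
  have hqcont : Continuous q := by
    refine continuous_pi fun j => ?_
    by_cases hj : j ≤ i
    · simpa [hq, hj] using continuous_apply j
    · simpa [hq, hj] using continuous_const
  have hccont : Continuous c := continuous_apply i
  have hLcont : Continuous L := continuous_const.update i continuous_id
  have hq_iff : ∀ z z' : Fin n → ℝ, q z = q z' ↔ ∀ j : Fin n, j ≤ i → z j = z' j := by
    intro z z'
    constructor
    · intro h j hj
      have := congrFun h j
      simpa [hq, hj] using this
    · intro h
      funext j
      by_cases hj : j ≤ i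
      · simp [hq, hj, h j hj]
      · simp [hq, hj]
  have hcompat : ∀ a z z', q z = q z' → q (act a z) = q (act a z') := by
    intro a z z' h
    rw [hq_iff] at h ⊢
    intro j hj
    exact htri a z z' j (fun j' hj' => h j' (hj'.trans hj))
  have hcL : ∀ t, c (q (L t)) = t := by
    intro t
    simp [hc, hq, hL]
  have key : ∀ (g : K), (∀ x (j : Fin n), j < i → act g x j = x j) →
      ∀ t, q (act g (L t)) = q (L (ret act q L c g t)) := by
    intro g hfix t
    rw [hq_iff]
    intro j hj
    rcases lt_or_eq_of_le hj with hlt | heq
    · rw [hfix _ j hlt]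
      simp [hL, Function.update_of_ne (ne_of_lt hlt)]
    · subst heq
      simp [ret, hL, hc, hq]
  have h := ret_two_eq act hcont hzero hadd q hqcont hcompat L hLcont c hccont hcL g
    (key g hfix) (key (-g) hfix') (x i)
  have hLx : L (x i) = x := by simp [hL]
  rw [hLx, hq_iff] at h
  exact h i le_rfl

/-- Every element of the form `2 ^ k • g` fixes the first `k` coordinates of every point. -/
theorem tri_fix {n : ℕ}
    (act : K → (Fin n → ℝ) → (Fin n → ℝ))
    (hcont : Continuous (fun z : K × (Fin n → ℝ) => act z.1 z.2))
    (hzero : ∀ x, act 0 x = x) (hadd : ∀ a b x, act (a + b) x = act a (act b x))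
    (htri : ∀ a x y (i : Fin n), (∀ j : Fin n, j ≤ i → x j = y j) → act a x i = act a y i)
    (k : ℕ) : ∀ (g : K) (x : Fin n → ℝ) (j : Fin n), j.val < k → act (2 ^ k • g) x j = x j := by
  induction k with
  | zero => intro g x j hj; exact absurd hj (Nat.not_lt_zero _)
  | succ k ih =>
    intro g x j hj
    have h2 : 2 ^ (k + 1) • g = 2 ^ k • g + 2 ^ k • g := by
      rw [pow_succ, mul_comm, mul_smul, two_smul]
    rw [h2]
    rcases Nat.lt_succ_iff_lt_or_eq.mp hj with hlt | heq
    · rw [hadd, ih g _ j hlt, ih g x j hlt]
    · refine tri_step act hcont hzero hadd htri j (2 ^ k • g) ?_ ?_ x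
      · intro z j' hj'
        exact ih g z j' (by rw [← heq]; exact hj')
      · intro z j' hj'
        rw [← smul_neg]
        exact ih (-g) z j' (by rw [← heq]; exact hj')

theorem tri_trivial {n : ℕ}
    (act : K → (Fin n → ℝ) → (Fin n → ℝ))
    (hcont : Continuous (fun z : K × (Fin n → ℝ) => act z.1 z.2))
    (hzero : ∀ x, act 0 x = x) (hadd : ∀ a b x, act (a + b) x = act a (act b x))
    (htri : ∀ a x y (i : Fin n), (∀ j : Fin n, j ≤ i → x j = y j) → act a x i = act a y i)
    (g : K) (x : Fin n → ℝ) : act (2 ^ n • g) x = x := by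
  funext j
  exact tri_fix act hcont hzero hadd htri n g x j j.isLt

end triangular

end Vale.Agent.Lib.P228
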